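import Vale.Agent.Lib.P074Q.SecondDiff

open MeasureTheory Set Metric
open scoped ENNReal NNReal

namespace Vale.Agent.P074Q

variable {d : ℕ}

/-- The conjugate of `φ` over the ball of radius `b`. -/
noncomputable def conj (φ : Rd d → ℝ) (b : ℝ) (y : Rd d) : ℝ :=
  sSup ((fun x : Rd d => inner ℝ x y - φ x) '' closedBall (0 : Rd d) b)

lemma conj_bdd {φ : Rd d → ℝ} (hφ : Continuous φ) (b : ℝ) (y : Rd d) :
    BddAbove ((fun x : Rd d => inner ℝ x y - φ x) '' closedBall (0 : Rd d) b) :=
  (isCompact_closedBall (0 : Rd d) b).bddAbove_image (Continuous.continuousOn (by fun_prop))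

lemma le_conj {φ : Rd d → ℝ} (hφ : Continuous φ) {b : ℝ} (y : Rd d) {x : Rd d} (hx : ‖x‖ ≤ b) :
    inner ℝ x y - φ x ≤ conj φ b y :=
  le_csSup (conj_bdd hφ b y) ⟨x, by simpa using hx, rfl⟩

lemma conj_le {φ : Rd d → ℝ} {b : ℝ} (hb : 0 ≤ b) {y : Rd d} {c : ℝ}
    (h : ∀ x : Rd d, ‖x‖ ≤ b → inner ℝ x y - φ x ≤ c) : conj φ b y ≤ c := by
  apply csSup_le
  · exact ⟨_, 0, by simpa using hb, rfl⟩
  · rintro _ ⟨x, hx, rfl⟩
    exact h x (by simpa using hx)

lemma conj_le_add {φ : Rd d → ℝ} (hφ : Continuous φ) {b : ℝ} (hb : 0 ≤ b) (y y' : Rd d) :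
    conj φ b y ≤ conj φ b y' + b * ‖y - y'‖ := by
  apply conj_le hb
  intro x hx
  have h1 := le_conj hφ y' hx
  have h2 : inner ℝ x y = inner ℝ x y' + inner ℝ x (y - y') := by
    rw [inner_sub_right]; ring
  have h3 : inner ℝ x (y - y') ≤ ‖x‖ * ‖y - y'‖ := real_inner_le_norm _ _
  have h4 : ‖x‖ * ‖y - y'‖ ≤ b * ‖y - y'‖ := by gcongr
  linarith

lemma conj_lip {φ : Rd d → ℝ} (hφ : Continuous φ) {b : ℝ} (hb : 0 ≤ b) (y y' : Rd d) :
    |conj φ b y - conj φ b y'| ≤ b * ‖y - y'‖ := by
  rw [abs_le]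
  have h1 := conj_le_add hφ hb y y'
  have h2 := conj_le_add hφ hb y' y
  rw [norm_sub_rev] at h2
  constructor <;> linarith

lemma conj_continuous {φ : Rd d → ℝ} (hφ : Continuous φ) {b : ℝ} (hb : 0 ≤ b) :
    Continuous (conj φ b) := by
  have : LipschitzWith b.toNNReal (conj φ b) := by
    apply LipschitzWith.of_dist_le_mul
    intro x y
    rw [Real.dist_eq, dist_eq_norm, Real.coe_toNNReal b hb]
    exact conj_lip hφ hb x y
  exact this.continuous

lemma conj_eq {φ : Rd d → ℝ} (hφ : Continuous φ) {b : ℝ} (hb : 0 ≤ b) {x y : Rd d}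
    (hx : ‖x‖ ≤ b) (h : ∀ z, φ x + inner ℝ y (z - x) ≤ φ z) :
    conj φ b y = inner ℝ x y - φ x := by
  apply le_antisymm
  · apply conj_le hb
    intro z _
    have h1 := h z
    rw [inner_sub_right, real_inner_comm x y, real_inner_comm z y] at h1
    linarith
  · exact le_conj hφ y hx

/-- The duality gap controls `‖y - T x‖` up to second differences. -/
lemma gap_lower {φ : Rd d → ℝ} (hφ : Continuous φ) {b r : ℝ} (hr : 0 < r)
    {x y t : Rd d} (hx : ‖x‖ + r ≤ b) (h : ∀ z, φ x + inner ℝ t (z - x) ≤ φ z) :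
    r * ‖t - y‖ ≤ d * (φ x + conj φ b y - inner ℝ x y) +
      ∑ i : Fin d, sdiff2 φ (r • (EuclideanSpace.single i (1:ℝ))) x := by
  have key : ∀ i : Fin d, r * |(t - y) i| ≤ (φ x + conj φ b y - inner ℝ x y) +
      sdiff2 φ (r • (EuclideanSpace.single i (1:ℝ))) x := by
    intro i
    set v : Rd d := r • (EuclideanSpace.single i (1:ℝ)) with hv
    have hvn : ‖v‖ = r := by
      rw [hv, norm_smul, PiLp.norm_single]; simp [abs_of_pos hr]
    have hin : ∀ w : Rd d, inner ℝ v w = r * w i := by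
      intro w
      rw [hv, inner_smul_left, EuclideanSpace.inner_single_left]; simp
    have a1 : inner ℝ (x + v) y - φ (x + v) ≤ conj φ b y := by
      apply le_conj hφ
      exact (norm_add_le _ _).trans (by rw [hvn]; exact hx)
    have a2 : inner ℝ (x - v) y - φ (x - v) ≤ conj φ b y := by
      apply le_conj hφ
      exact (norm_sub_le _ _).trans (by rw [hvn]; exact hx)
    have b1 := h (x + v)
    have b2 := h (x - v)
    rw [add_sub_cancel_left, real_inner_comm, hin] at b1
    rw [sub_sub_cancel_left, inner_neg_right, real_inner_comm, hin] at b2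
    rw [inner_add_left, hin] at a1
    rw [inner_sub_left, hin] at a2
    have e : (t - y) i = t i - y i := rfl
    rw [e]
    unfold sdiff2
    rcases abs_cases (t i - y i) with ⟨h1, _⟩ | ⟨h1, _⟩
    · rw [h1]; nlinarith
    · rw [h1]; nlinarith
  have hsum := Finset.sum_le_sum (fun i (_ : i ∈ (Finset.univ : Finset (Fin d))) => key i)
  rw [Finset.sum_add_distrib, ← Finset.mul_sum, Finset.sum_const, Finset.card_univ,
    Fintype.card_fin, nsmul_eq_mul] at hsum
  refine le_trans ?_ hsum
  gcongr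
  have := EuclideanSpace.norm_eq (t - y)
  rw [this]
  apply Real.sqrt_le_iff.mpr
  constructor
  · positivity
  · simp only [Real.norm_eq_abs]
    exact Finset.sum_sq_le_sq_sum_of_nonneg (fun i _ => abs_nonneg _)

/-- The main integrated estimate. -/
theorem core_bound {b₀ : ℝ} (hb0 : 0 ≤ b₀) (c L : ℝ≥0)
    {ρ : Measure (Rd d)} [IsProbabilityMeasure ρ]
    (hρ : ρ ≤ c • volume.restrict (closedBall (0 : Rd d) b₀))
    {φ ψ : Rd d → ℝ} (hφ : LipschitzWith L φ) (hφc : ConvexOn ℝ univ φ) (hψ : LipschitzWith L ψ)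
    {T S : Rd d → Rd d} (hT : Measurable T) (hS : Measurable S)
    (hTφ : ∀ᵐ x ∂ρ, ∀ z, φ x + inner ℝ (T x) (z - x) ≤ φ z)
    (hSψ : ∀ᵐ x ∂ρ, ∀ z, ψ x + inner ℝ (S x) (z - x) ≤ ψ z)
    (hTR : ∀ᵐ x ∂ρ, ‖T x‖ ≤ L) (hSR : ∀ᵐ x ∂ρ, ‖S x‖ ≤ L)
    {γ : Measure (Rd d × Rd d)} (hγ : IsCoupling (ρ.map T) (ρ.map S) γ)
    {r : ℝ} (hr : 0 < r) (hr1 : r ≤ 1) :
    r * ∫ x, ‖T x - S x‖ ∂ρ ≤ d * (2 * (b₀ + 1) * ∫ z, ‖z.1 - z.2‖ ∂γ) +
      d * (c * (L * r ^ 2 * (volume (closedBall (0 : Rd d) (b₀ + 2))).toReal)) := by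
  set b : ℝ := b₀ + 1 with hb
  have hbnn : 0 ≤ b := by linarith
  have hφk : Continuous φ := hφ.continuous
  have hψk : Continuous ψ := hψ.continuous
  set h : Rd d → ℝ := fun y => conj φ b y - conj ψ b y with hh
  have hhk : Continuous h := (conj_continuous hφk hbnn).sub (conj_continuous hψk hbnn)
  -- support of ρ
  have hsupp : ∀ᵐ x ∂ρ, ‖x‖ ≤ b₀ := by
    have h1 : ∀ᵐ x ∂(volume.restrict (closedBall (0 : Rd d) b₀)), ‖x‖ ≤ b₀ := by
      filter_upwards [ae_restrict_mem measurableSet_closedBall] with x hx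
      simpa using hx
    have h2 : ρ ≪ volume.restrict (closedBall (0 : Rd d) b₀) :=
      (Measure.absolutelyContinuous_of_le hρ).trans (Measure.smul_absolutelyContinuous)
    exact h2.ae_le h1
  -- pointwise
  have hpt : ∀ᵐ x ∂ρ, r * ‖T x - S x‖ ≤ d * (h (S x) - h (T x)) +
      ∑ i : Fin d, sdiff2 φ (r • (EuclideanSpace.single i (1:ℝ))) x := by
    filter_upwards [hTφ, hSψ, hsupp] with x h1 h2 h3
    have hxr : ‖x‖ + r ≤ b := by rw [hb]; linarith
    have hxb : ‖x‖ ≤ b := by linarith
    have g1 := gap_lower hφk hr hxr (y := S x) h1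
    refine g1.trans ?_
    have e1 := conj_eq hφk hbnn hxb h1
    have e2 := conj_eq hψk hbnn hxb h2
    have e3 := le_conj hψk (T x) hxb
    have e4 : φ x + conj φ b (S x) - inner ℝ x (S x) ≤ h (S x) - h (T x) := by
      simp only [hh]
      linarith
    have e5 := mul_le_mul_of_nonneg_left e4 (Nat.cast_nonneg d : (0:ℝ) ≤ d)
    linarith
  -- integrability
  have hTi : Integrable T ρ := Integrable.of_bound hT.aestronglyMeasurable L hTR
  have hSi : Integrable S ρ := Integrable.of_bound hS.aestronglyMeasurable L hSR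
  have hcomp : ∀ F : Rd d → Rd d, Measurable F → (∀ᵐ x ∂ρ, ‖F x‖ ≤ L) →
      Integrable (fun x => h (F x)) ρ := by
    intro F hF hFR
    obtain ⟨M, hM⟩ := (isCompact_closedBall (0 : Rd d) L).exists_bound_of_continuousOn
      hhk.continuousOn
    apply Integrable.of_bound (hhk.measurable.comp hF).aestronglyMeasurable M
    filter_upwards [hFR] with x hx
    exact hM _ (by simpa using hx)
  have hhT := hcomp T hT hTR
  have hhS := hcomp S hS hSR
  have hsd : ∀ i : Fin d, Integrable (sdiff2 φ (r • (EuclideanSpace.single i (1:ℝ))))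
      (c • volume.restrict (closedBall (0 : Rd d) b₀)) := by
    intro i
    apply Integrable.smul_measure_nnreal
    apply (Continuous.continuousOn _).integrableOn_compact (isCompact_closedBall _ _)
    unfold sdiff2
    fun_prop
  have hsdρ : ∀ i : Fin d, Integrable (sdiff2 φ (r • (EuclideanSpace.single i (1:ℝ)))) ρ :=
    fun i => (hsd i).mono_measure hρ
  -- integrate
  have i1 : Integrable (fun x => r * ‖T x - S x‖) ρ := (hTi.sub hSi).norm.const_mul r
  have i2 : Integrable (fun x => (d:ℝ) * (h (S x) - h (T x))) ρ := (hhS.sub hhT).const_mul (d:ℝ)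
  have i3 : Integrable (fun x => ∑ i : Fin d, sdiff2 φ (r • (EuclideanSpace.single i (1:ℝ))) x) ρ :=
    integrable_finsetSum Finset.univ (fun i _ => hsdρ i)
  have hint := integral_mono_ae i1 (i2.add i3) (by
      filter_upwards [hpt] with x hx
      simpa using hx)
  rw [integral_const_mul] at hint
  have hint2 : ∫ x, ((fun x => (d:ℝ) * (h (S x) - h (T x))) +
      (fun x => ∑ i : Fin d, sdiff2 φ (r • (EuclideanSpace.single i (1:ℝ))) x)) x ∂ρ =
      d * ((∫ x, h (S x) ∂ρ) - ∫ x, h (T x) ∂ρ) +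
      ∑ i : Fin d, ∫ x, sdiff2 φ (r • (EuclideanSpace.single i (1:ℝ))) x ∂ρ := by
    rw [integral_add' i2 i3, integral_const_mul, integral_sub hhS hhT,
      integral_finsetSum _ (fun i _ => hsdρ i)]
  rw [hint2] at hint
  refine hint.trans (add_le_add ?_ ?_)
  · gcongr
    have j1 : ∫ x, h (T x) ∂ρ = ∫ z, h z.1 ∂γ := by
      rw [← integral_map hT.aemeasurable hhk.aestronglyMeasurable, ← hγ.1,
        integral_map measurable_fst.aemeasurable hhk.aestronglyMeasurable]
    have j2 : ∫ x, h (S x) ∂ρ = ∫ z, h z.2 ∂γ := by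
      rw [← integral_map hS.aemeasurable hhk.aestronglyMeasurable, ← hγ.2,
        integral_map measurable_snd.aemeasurable hhk.aestronglyMeasurable]
    have k1 : Integrable (fun z : Rd d × Rd d => h z.1) γ := by
      have : Integrable h (γ.map Prod.fst) := by
        rw [hγ.1]
        exact (integrable_map_measure hhk.aestronglyMeasurable hT.aemeasurable).2 hhT
      exact (integrable_map_measure hhk.aestronglyMeasurable measurable_fst.aemeasurable).1 this
    have k2 : Integrable (fun z : Rd d × Rd d => h z.2) γ := by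
      have : Integrable h (γ.map Prod.snd) := by
        rw [hγ.2]
        exact (integrable_map_measure hhk.aestronglyMeasurable hS.aemeasurable).2 hhS
      exact (integrable_map_measure hhk.aestronglyMeasurable measurable_snd.aemeasurable).1 this
    have l1 : Integrable (fun z : Rd d × Rd d => z.1) γ := by
      have : Integrable (fun y : Rd d => y) (γ.map Prod.fst) := by
        rw [hγ.1]
        exact (integrable_map_measure aestronglyMeasurable_id hT.aemeasurable).2 hTi
      exact (integrable_map_measure aestronglyMeasurable_id measurable_fst.aemeasurable).1 this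
    have l2 : Integrable (fun z : Rd d × Rd d => z.2) γ := by
      have : Integrable (fun y : Rd d => y) (γ.map Prod.snd) := by
        rw [hγ.2]
        exact (integrable_map_measure aestronglyMeasurable_id hS.aemeasurable).2 hSi
      exact (integrable_map_measure aestronglyMeasurable_id measurable_snd.aemeasurable).1 this
    rw [j1, j2, ← integral_sub k2 k1, ← integral_const_mul]
    apply integral_mono (k2.sub k1) ((l1.sub l2).norm.const_mul _)
    intro z
    have m1 := conj_lip hφk hbnn z.2 z.1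
    have m2 := conj_lip hψk hbnn z.1 z.2
    have n1 := le_abs_self (conj φ b z.2 - conj φ b z.1)
    have n2 := le_abs_self (conj ψ b z.1 - conj ψ b z.2)
    rw [norm_sub_rev] at m1
    simp only [hh, Pi.sub_apply]
    linarith
  · have hone : ∀ i : Fin d, ∫ x, sdiff2 φ (r • (EuclideanSpace.single i (1:ℝ))) x ∂ρ ≤
        c * (L * r ^ 2 * (volume (closedBall (0 : Rd d) (b₀ + 2))).toReal) := by
      intro i
      have hvn : ‖r • (EuclideanSpace.single i (1:ℝ) : Rd d)‖ = r := by
        rw [norm_smul, PiLp.norm_single]; simp [abs_of_pos hr]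
      have o1 := integral_mono_measure hρ
        (Filter.Eventually.of_forall (fun x => sdiff2_nonneg hφc
          (r • (EuclideanSpace.single i (1:ℝ))) x)) (hsd i)
      refine o1.trans ?_
      rw [integral_smul_nnreal_measure]
      have o2 := integral_sdiff2_le hφ hφc (ρ := b₀) (r • (EuclideanSpace.single i (1:ℝ)))
        (by rw [hvn]; exact hr1)
      rw [hvn] at o2
      rw [NNReal.smul_def, smul_eq_mul]
      gcongr
    calc ∑ i : Fin d, ∫ x, sdiff2 φ (r • (EuclideanSpace.single i (1:ℝ))) x ∂ρ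
        ≤ ∑ _i : Fin d, c * (L * r ^ 2 * (volume (closedBall (0 : Rd d) (b₀ + 2))).toReal) :=
          Finset.sum_le_sum (fun i _ => hone i)
      _ = d * (c * (L * r ^ 2 * (volume (closedBall (0 : Rd d) (b₀ + 2))).toReal)) := by
          rw [Finset.sum_const, Finset.card_univ, Fintype.card_fin, nsmul_eq_mul]

end Vale.Agent.P074Q
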