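import Vale.Agent.Lib.P074Q.Swap

open MeasureTheory Set Metric Filter
open scoped ENNReal NNReal Topology

namespace Vale.Agent.P074Q

variable {d : ℕ}

/-- Interior points of `K` where the averages of `T` over nearby balls converge to `T x`. -/
def Good (K : Set (Rd d)) (T : Rd d → Rd d) (x : Rd d) : Prop :=
  x ∈ interior K ∧ ∀ (k : ℕ) (w : ℕ → Rd d) (δ : ℕ → ℝ), Tendsto δ atTop (𝓝[>] 0) →
    (∀ᶠ j in atTop, x ∈ closedBall (w j) (k * δ j)) →
    Tendsto (fun j => ⨍ y in closedBall (w j) (δ j), T y) atTop (𝓝 (T x))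

lemma ae_good {K : Set (Rd d)} (hK : IsCompact K) (hKc : Convex ℝ K) {T : Rd d → Rd d}
    (hTi : IntegrableOn T K) : ∀ᵐ x ∂(volume.restrict K), Good K T x := by
  have hKm : MeasurableSet K := hK.measurableSet
  set f : Rd d → Rd d := K.indicator T with hf
  have hfi : Integrable f := (integrable_indicator_iff hKm).2 hTi
  have h1 : ∀ᵐ x, ∀ k : ℕ, ∀ {ι : Type} {l : Filter ι} (w : ι → Rd d) (δ : ι → ℝ)
      (_ : Tendsto δ l (𝓝[>] 0)) (_ : ∀ᶠ j in l, x ∈ closedBall (w j) (k * δ j)),
      Tendsto (fun j => ⨍ y in closedBall (w j) (δ j), f y) l (𝓝 (f x)) := by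
    rw [ae_all_iff]
    intro k
    exact IsUnifLocDoublingMeasure.ae_tendsto_average volume hfi.locallyIntegrable k
  have h2 : ∀ᵐ x, x ∉ frontier K := by
    rw [ae_iff]
    simpa using hKc.addHaar_frontier volume
  filter_upwards [ae_restrict_mem hKm, ae_restrict_of_ae h1, ae_restrict_of_ae h2] with x hx h3 h4
  have hxi : x ∈ interior K := by
    by_contra h
    exact h4 ⟨subset_closure hx, h⟩
  refine ⟨hxi, ?_⟩
  intro k w δ hδ hw
  have h5 := h3 k w δ hδ hw
  have h6 : f x = T x := indicator_of_mem hx T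
  rw [h6] at h5
  refine h5.congr' ?_
  -- eventually the balls are inside K
  obtain ⟨η, hη, hηK⟩ := Metric.isOpen_iff.1 isOpen_interior x hxi
  have hδ0 : Tendsto δ atTop (𝓝 0) := hδ.mono_right nhdsWithin_le_nhds
  have h7 : ∀ᶠ j in atTop, (k + 1) * δ j < η := by
    have : Tendsto (fun j => (k + 1) * δ j) atTop (𝓝 ((k + 1) * 0)) := hδ0.const_mul _
    rw [mul_zero] at this
    exact this.eventually_lt_const hη
  filter_upwards [hw, h7] with j hj1 hj2
  apply setAverage_congr_fun measurableSet_closedBall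
  filter_upwards with y hy
  apply indicator_of_mem
  apply interior_subset
  apply hηK
  rw [mem_closedBall] at hj1 hy
  rw [mem_ball]
  calc dist y x ≤ dist y (w j) + dist (w j) x := dist_triangle _ _ _
    _ ≤ δ j + k * δ j := by rw [dist_comm (w j) x]; gcongr
    _ < η := by linarith

/-- Cyclic monotonicity of optimal maps at good points. -/
theorem cyclic_mono {K : Set (Rd d)} (hK : IsCompact K)
    {μ : Measure (Rd d)} {R : ℝ} (hμ : ∀ᵐ y ∂μ, ‖y‖ ≤ R) {T : Rd d → Rd d}
    (hT : IsOptimalMap (unif K) μ T) {e : Rd d} (he : ‖e‖ = 1) {n : ℕ} {x : Fin n → Rd d}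
    (hx : ∀ i, Good K T (x i)) (σ : Equiv.Perm (Fin n)) :
    ∑ i, inner ℝ (x (σ i) - x i) (T (x i)) ≤ 0 := by
  rcases Nat.eq_zero_or_pos n with hn | hn
  · subst hn
    simp
  have hKt : volume K ≠ ∞ := hK.measure_lt_top.ne
  have hK0 : volume K ≠ 0 := by
    have h1 : (interior K).Nonempty := ⟨_, (hx ⟨0, hn⟩).1⟩
    exact (isOpen_interior.measure_pos volume h1).ne' ∘ fun h =>
      measure_mono_null interior_subset h
  set δ : ℕ → ℝ := fun j => 1 / ((j : ℝ) + 1) with hδ
  have hδpos : ∀ j, 0 < δ j := fun j => by positivity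
  have hδ0 : Tendsto δ atTop (𝓝 0) := tendsto_one_div_add_atTop_nhds_zero_nat
  have hδ' : Tendsto δ atTop (𝓝[>] 0) :=
    tendsto_nhdsWithin_iff.2 ⟨hδ0, Eventually.of_forall hδpos⟩
  set w : Fin n → ℕ → Rd d := fun i j => x i + (3 * (i : ℕ) * δ j) • e with hw
  have hwd : ∀ i j, dist (x i) (w i j) = 3 * (i : ℕ) * δ j := by
    intro i j
    rw [hw, dist_eq_norm]
    simp only [sub_add_cancel_left, norm_neg, norm_smul, he, mul_one]
    rw [Real.norm_eq_abs, abs_of_nonneg]
    have := hδpos j
    positivity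
  have hwlim : ∀ i, Tendsto (w i) atTop (𝓝 (x i)) := by
    intro i
    have h1 : Tendsto (fun j => x i + (3 * (i : ℕ) * δ j) • e) atTop
        (𝓝 (x i + (3 * (i : ℕ) * (0:ℝ)) • e)) :=
      tendsto_const_nhds.add ((hδ0.const_mul _).smul_const e)
    simpa using h1
  have hdis : ∀ᶠ j in atTop, ∀ i i' : Fin n, i ≠ i' →
      Disjoint (closedBall (w i j) (δ j)) (closedBall (w i' j) (δ j)) := by
    rw [eventually_all]
    intro i
    rw [eventually_all]
    intro i'
    by_cases hii : i = i'
    · filter_upwards with j h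
      exact absurd hii h
    by_cases hxx : x i = x i'
    · filter_upwards with j _
      apply closedBall_disjoint_closedBall
      rw [hw, dist_eq_norm]
      simp only [hxx, add_sub_add_left_eq_sub]
      rw [← sub_smul, norm_smul, he, mul_one, ← sub_mul, ← mul_sub, Real.norm_eq_abs, abs_mul,
        abs_mul, abs_of_pos (hδpos j)]
      have h1 : (1:ℝ) ≤ |((i : ℕ) : ℝ) - ((i' : ℕ) : ℝ)| := by
        have h2 : ((i : ℕ) : ℤ) - ((i' : ℕ) : ℤ) ≠ 0 := by
          intro h
          apply hii
          apply Fin.ext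
          omega
        have h3 := Int.one_le_abs h2
        exact_mod_cast h3
      have h4 := hδpos j
      have h5 : |(3:ℝ)| = 3 := abs_of_pos (by norm_num)
      rw [h5]
      nlinarith
    · have h1 : Tendsto (fun j => dist (w i j) (w i' j) - (δ j + δ j)) atTop
          (𝓝 (dist (x i) (x i') - (0 + 0))) :=
        ((hwlim i).dist (hwlim i')).sub (hδ0.add hδ0)
      have h2 : 0 < dist (x i) (x i') - (0 + 0) := by
        simpa using hxx
      filter_upwards [h1.eventually_const_lt h2] with j hj _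
      apply closedBall_disjoint_closedBall
      linarith
  have hsub : ∀ᶠ j in atTop, ∀ i : Fin n, closedBall (w i j) (δ j) ⊆ K := by
    rw [eventually_all]
    intro i
    obtain ⟨η, hη, hηK⟩ := Metric.isOpen_iff.1 isOpen_interior (x i) (hx i).1
    have h7 : ∀ᶠ j in atTop, (3 * (i : ℕ) + 1) * δ j < η := by
      have : Tendsto (fun j => (3 * ((i : ℕ) : ℝ) + 1) * δ j) atTop
          (𝓝 ((3 * (i : ℕ) + 1) * 0)) := hδ0.const_mul _
      rw [mul_zero] at this
      exact this.eventually_lt_const hη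
    filter_upwards [h7] with j hj y hy
    apply interior_subset
    apply hηK
    rw [mem_closedBall] at hy
    rw [mem_ball]
    calc dist y (x i) ≤ dist y (w i j) + dist (w i j) (x i) := dist_triangle _ _ _
      _ ≤ δ j + 3 * (i : ℕ) * δ j := by rw [dist_comm (w i j) (x i), hwd]; gcongr
      _ < η := by linarith
  have havg : ∀ i, Tendsto (fun j => ⨍ y in closedBall (w i j) (δ j), T y) atTop
      (𝓝 (T (x i))) := by
    intro i
    apply (hx i).2 (3 * (i : ℕ)) (w i) δ hδ'
    filter_upwards with j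
    rw [mem_closedBall, hwd]
    push_cast
    exact le_rfl
  have hlim : Tendsto (fun j => ∑ i, (inner ℝ (w (σ i) j - w i j)
      (⨍ y in closedBall (w i j) (δ j), T y) : ℝ)) atTop
      (𝓝 (∑ i, inner ℝ (x (σ i) - x i) (T (x i)))) := by
    apply tendsto_finsetSum
    intro i _
    exact (((hwlim (σ i)).sub (hwlim i)).inner (havg i))
  apply le_of_tendsto hlim
  filter_upwards [hdis, hsub] with j hj1 hj2
  have h1 := swap_ineq hK hK0 hμ hT (x := fun i => w i j) (ε := δ j)
    (fun i i' h => hj1 i i' h) hj2 σ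
  have h2 : ∀ i, (⨍ y in closedBall (w i j) (δ j), T y) =
      (volume (closedBall (0 : Rd d) (δ j))).toReal⁻¹ • ∫ y in closedBall (w i j) (δ j), T y := by
    intro i
    rw [setAverage_eq, Measure.real, Measure.addHaar_closedBall_center]
  simp_rw [h2, inner_smul_right]
  rw [← Finset.mul_sum]
  exact mul_nonpos_of_nonneg_of_nonpos (by positivity) h1

end Vale.Agent.P074Q
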