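import Mathlib

/-!
Definitions for P074: quadratic optimal transport maps from the uniform measure on a convex body,
Wasserstein distances, and the admissible stability exponents.
-/

open MeasureTheory Set
open scoped ENNReal NNReal

namespace Vale.Agent.P074Q

/-- The Euclidean space of dimension `d`. -/
abbrev Rd (d : ℕ) : Type := EuclideanSpace ℝ (Fin d)

/-- The uniform probability measure on `K`. -/
noncomputable def unif {d : ℕ} (K : Set (Rd d)) : Measure (Rd d) :=
  (volume K)⁻¹ • volume.restrict K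

/-- `γ` is a coupling of `μ` and `ν`. -/
def IsCoupling {d : ℕ} (μ ν : Measure (Rd d)) (γ : Measure (Rd d × Rd d)) : Prop :=
  γ.map Prod.fst = μ ∧ γ.map Prod.snd = ν

/-- The Wasserstein distance of exponent `p`. -/
noncomputable def wass {d : ℕ} (p : ℝ) (μ ν : Measure (Rd d)) : ℝ≥0∞ :=
  ⨅ (γ : Measure (Rd d × Rd d)) (_ : IsCoupling μ ν γ), (∫⁻ z, ‖z.1 - z.2‖ₑ ^ p ∂γ) ^ (1 / p)

/-- `T` is a quadratic optimal transport map from `ρ` to `μ`: a Borel map pushing `ρ` to `μ`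
with the least quadratic cost among all such maps. -/
def IsOptimalMap {d : ℕ} (ρ μ : Measure (Rd d)) (T : Rd d → Rd d) : Prop :=
  Measurable T ∧ ρ.map T = μ ∧
    ∀ S : Rd d → Rd d, Measurable S → ρ.map S = μ →
      ∫⁻ x, ‖x - T x‖ₑ ^ 2 ∂ρ ≤ ∫⁻ x, ‖x - S x‖ₑ ^ 2 ∂ρ

/-- The exponent `α` is admissible in dimension `d`. -/
def IsAdmissible (d : ℕ) (α : ℝ) : Prop :=
  ∀ K : Set (Rd d), Convex ℝ K → IsCompact K → (interior K).Nonempty →
    ∀ Y : Set (Rd d), IsCompact Y → Y.Nonempty →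
      ∃ C : ℝ≥0, ∀ μ ν : Measure (Rd d), IsProbabilityMeasure μ → IsProbabilityMeasure ν →
        μ Yᶜ = 0 → ν Yᶜ = 0 →
          ∀ T S : Rd d → Rd d, IsOptimalMap (unif K) μ T → IsOptimalMap (unif K) ν S →
            eLpNorm (T - S) 2 (unif K) ≤ C * wass 2 μ ν ^ α

/-- The supremum of the admissible exponents in `(0, 1]`. -/
noncomputable def alphaStar (d : ℕ) : ℝ :=
  sSup {α : ℝ | 0 < α ∧ α ≤ 1 ∧ IsAdmissible d α}

end Vale.Agent.P074Q
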