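import Vale.Agent.Lib.P074Q.Cyclic

open MeasureTheory Set Metric Filter
open scoped ENNReal NNReal Topology

namespace Vale.Agent.P074Q

variable {d : ℕ}

/-- The affine function attached to a chain. -/
noncomputable def chainVal (T : Rd d → Rd d) (p : ℕ → Rd d) (n : ℕ) (z : Rd d) : ℝ :=
  ∑ k ∈ Finset.range n, inner ℝ (p (k + 1) - p k) (T (p k)) + inner ℝ (z - p n) (T (p n))

lemma chainVal_sub (T : Rd d → Rd d) (p : ℕ → Rd d) (n : ℕ) (z z' : Rd d) :
    chainVal T p n z = chainVal T p n z' + inner ℝ (z - z') (T (p n)) := by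
  unfold chainVal
  have : z - p n = (z' - p n) + (z - z') := by abel
  rw [this, inner_add_left]
  ring

lemma chainVal_convex (T : Rd d → Rd d) (p : ℕ → Rd d) (n : ℕ) (z z' : Rd d) {a b : ℝ}
    (hab : a + b = 1) :
    chainVal T p n (a • z + b • z') = a * chainVal T p n z + b * chainVal T p n z' := by
  have h1 := chainVal_sub T p n (a • z + b • z') z'
  have h2 := chainVal_sub T p n z z'
  have h3 : a • z + b • z' - z' = a • (z - z') := by
    have : b = 1 - a := by linarith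
    rw [this, sub_smul, one_smul, smul_sub]
    abel
  rw [h3, inner_smul_left] at h1
  rw [h1, h2]
  have : b = 1 - a := by linarith
  rw [this]
  simp
  ring

lemma chainVal_le_zero {G : Set (Rd d)} {T : Rd d → Rd d}
    (hcyc : ∀ (n : ℕ) (x : Fin n → Rd d), (∀ i, x i ∈ G) → ∀ σ : Equiv.Perm (Fin n),
      ∑ i, inner ℝ (x (σ i) - x i) (T (x i)) ≤ 0)
    {p : ℕ → Rd d} (hp : ∀ k, p k ∈ G) (n : ℕ) : chainVal T p n (p 0) ≤ 0 := by
  have h := hcyc (n + 1) (fun i => p i) (fun i => hp i) (finRotate (n + 1))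
  rw [Fin.sum_univ_castSucc] at h
  rw [finRotate_last] at h
  have h1 : ∀ k : Fin n, ((finRotate (n + 1) k.castSucc : Fin (n + 1)) : ℕ) = (k : ℕ) + 1 := by
    intro k
    have := finRotate_of_lt (k := (k : ℕ)) (n := n) k.2
    have h2 : k.castSucc = ⟨(k : ℕ), k.2.trans n.lt_succ_self⟩ := rfl
    rw [h2, this]
  simp only [h1] at h
  unfold chainVal
  rw [Finset.sum_range]
  simpa using h

theorem rockafellar {G : Set (Rd d)} {T : Rd d → Rd d} {L : ℝ≥0} (hL : ∀ x ∈ G, ‖T x‖ ≤ L)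
    (hG : G.Nonempty)
    (hcyc : ∀ (n : ℕ) (x : Fin n → Rd d), (∀ i, x i ∈ G) → ∀ σ : Equiv.Perm (Fin n),
      ∑ i, inner ℝ (x (σ i) - x i) (T (x i)) ≤ 0) :
    ∃ φ : Rd d → ℝ, LipschitzWith L φ ∧ ConvexOn ℝ univ φ ∧
      ∀ x ∈ G, ∀ z, φ x + inner ℝ (T x) (z - x) ≤ φ z := by
  obtain ⟨x₀, hx₀⟩ := hG
  set A : Rd d → Set ℝ := fun z =>
    {r | ∃ (p : ℕ → Rd d) (n : ℕ), (∀ k, p k ∈ G) ∧ p 0 = x₀ ∧ r = chainVal T p n z} with hA
  have hne : ∀ z, (A z).Nonempty := fun z => ⟨_, fun _ => x₀, 0, fun _ => hx₀, rfl, rfl⟩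
  have hbd : ∀ z, BddAbove (A z) := by
    intro z
    refine ⟨L * ‖z - x₀‖, ?_⟩
    rintro _ ⟨p, n, hp, hp0, rfl⟩
    have h1 := chainVal_sub T p n z x₀
    have h2 := chainVal_le_zero hcyc hp n
    rw [hp0] at h2
    have h3 : (inner ℝ (z - x₀) (T (p n)) : ℝ) ≤ ‖z - x₀‖ * ‖T (p n)‖ := real_inner_le_norm _ _
    have h4 : ‖z - x₀‖ * ‖T (p n)‖ ≤ ‖z - x₀‖ * L := by gcongr; exact hL _ (hp n)
    linarith
  refine ⟨fun z => sSup (A z), ?_, ?_, ?_⟩
  · apply LipschitzWith.of_le_add_mul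
    intro z z'
    apply csSup_le (hne z)
    rintro _ ⟨p, n, hp, hp0, rfl⟩
    have h1 := chainVal_sub T p n z z'
    have h2 : chainVal T p n z' ≤ sSup (A z') := le_csSup (hbd z') ⟨p, n, hp, hp0, rfl⟩
    have h3 : (inner ℝ (z - z') (T (p n)) : ℝ) ≤ ‖z - z'‖ * ‖T (p n)‖ := real_inner_le_norm _ _
    have h4 : ‖z - z'‖ * ‖T (p n)‖ ≤ ‖z - z'‖ * L := by gcongr; exact hL _ (hp n)
    rw [dist_eq_norm]
    linarith
  · refine ⟨convex_univ, ?_⟩
    intro z _ z' _ a b ha hb hab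
    apply csSup_le (hne _)
    rintro _ ⟨p, n, hp, hp0, rfl⟩
    rw [chainVal_convex T p n z z' hab, smul_eq_mul, smul_eq_mul]
    have h1 : chainVal T p n z ≤ sSup (A z) := le_csSup (hbd z) ⟨p, n, hp, hp0, rfl⟩
    have h2 : chainVal T p n z' ≤ sSup (A z') := le_csSup (hbd z') ⟨p, n, hp, hp0, rfl⟩
    gcongr
  · intro x hx z
    have h : sSup (A x) ≤ sSup (A z) - inner ℝ (T x) (z - x) := by
      apply csSup_le (hne x)
      rintro _ ⟨p, n, hp, hp0, rfl⟩
      have h1 : chainVal T p n x + inner ℝ (z - x) (T x) ∈ A z := by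
        refine ⟨fun k => if k ≤ n then p k else x, n + 1, ?_, ?_, ?_⟩
        · intro k
          by_cases hk : k ≤ n
          · simp [hk, hp k]
          · simp [hk, hx]
        · simp [hp0]
        · unfold chainVal
          rw [Finset.sum_range_succ]
          have h2 : ∀ k ∈ Finset.range n, (inner ℝ ((if k + 1 ≤ n then p (k + 1) else x) -
              (if k ≤ n then p k else x)) (T (if k ≤ n then p k else x)) : ℝ) =
              inner ℝ (p (k + 1) - p k) (T (p k)) := by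
            intro k hk
            rw [Finset.mem_range] at hk
            rw [if_pos (by omega : k + 1 ≤ n), if_pos (by omega : k ≤ n)]
          rw [Finset.sum_congr rfl h2]
          simp
      have h3 := le_csSup (hbd z) h1
      rw [real_inner_comm] at h3
      linarith
    simp only
    linarith

end Vale.Agent.P074Q
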