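import Vale.Agent.Lib.P074Q.Core
import Vale.Agent.Lib.P074Q.Rockafellar

open MeasureTheory Set Metric Filter
open scoped ENNReal NNReal Topology

namespace Vale.Agent.P074Q

variable {d : ℕ}

/-- A real-variable optimisation lemma. -/
lemma opt_real {A B D I w : ℝ} (hA : 0 ≤ A) (hB : 0 ≤ B) (hD : 0 ≤ D) (hw : 0 ≤ w)
    (hID : I ≤ D) (h : ∀ r : ℝ, 0 < r → r ≤ 1 → r * I ≤ A * w + B * r ^ 2) :
    I ≤ (A + B + D) * Real.sqrt w := by
  have hsq : Real.sqrt w * Real.sqrt w = w := Real.mul_self_sqrt hw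
  have hs0 : 0 ≤ Real.sqrt w := Real.sqrt_nonneg w
  rcases lt_or_ge w 1 with h1 | h1
  · rcases hw.eq_or_lt with h0 | h0
    · -- w = 0
      subst h0
      rw [Real.sqrt_zero, mul_zero]
      by_contra hcon
      push Not at hcon
      have h2 := h (min 1 (I / (B + 1) / 2)) (by positivity) (min_le_left _ _)
      set r := min 1 (I / (B + 1) / 2) with hr
      have hr0 : 0 < r := by positivity
      have h3 : r ≤ I / (B + 1) / 2 := min_le_right _ _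
      have h4 : r * (B + 1) ≤ I / 2 := by
        have : r * (B + 1) ≤ I / (B + 1) / 2 * (B + 1) := by gcongr
        refine this.trans (le_of_eq ?_)
        field_simp
      nlinarith
    · have hspos : 0 < Real.sqrt w := Real.sqrt_pos.2 h0
      have hs1 : Real.sqrt w ≤ 1 := Real.sqrt_le_one.2 h1.le
      have h2 := h (Real.sqrt w) hspos hs1
      have h3 : Real.sqrt w * I ≤ Real.sqrt w * ((A + B) * Real.sqrt w) := by
        calc Real.sqrt w * I ≤ A * w + B * Real.sqrt w ^ 2 := h2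
          _ = Real.sqrt w * ((A + B) * Real.sqrt w) := by
            rw [pow_two, hsq]; linear_combination (-(A + B)) * hsq
      have h4 := le_of_mul_le_mul_left h3 hspos
      nlinarith
  · have hs1 : 1 ≤ Real.sqrt w := Real.one_le_sqrt.2 h1
    nlinarith [mul_nonneg (add_nonneg hA hB) hs0]

/-- The `L¹` estimate for every coupling, for Brenier maps. -/
theorem l1_real {b₀ : ℝ} (hb0 : 0 ≤ b₀) (c L : ℝ≥0)
    {ρ : Measure (Rd d)} [IsProbabilityMeasure ρ]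
    (hρ : ρ ≤ c • volume.restrict (closedBall (0 : Rd d) b₀))
    {φ ψ : Rd d → ℝ} (hφ : LipschitzWith L φ) (hφc : ConvexOn ℝ univ φ) (hψ : LipschitzWith L ψ)
    {T S : Rd d → Rd d} (hT : Measurable T) (hS : Measurable S)
    (hTφ : ∀ᵐ x ∂ρ, ∀ z, φ x + inner ℝ (T x) (z - x) ≤ φ z)
    (hSψ : ∀ᵐ x ∂ρ, ∀ z, ψ x + inner ℝ (S x) (z - x) ≤ ψ z)
    (hTR : ∀ᵐ x ∂ρ, ‖T x‖ ≤ L) (hSR : ∀ᵐ x ∂ρ, ‖S x‖ ≤ L)
    {γ : Measure (Rd d × Rd d)} (hγ : IsCoupling (ρ.map T) (ρ.map S) γ) :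
    ∫ x, ‖T x - S x‖ ∂ρ ≤ (d * (2 * (b₀ + 1)) +
      d * (c * (L * (volume (closedBall (0 : Rd d) (b₀ + 2))).toReal)) + 2 * L) *
      Real.sqrt (∫ z, ‖z.1 - z.2‖ ∂γ) := by
  apply opt_real (by positivity) (by positivity) (by positivity)
    (integral_nonneg (fun z => norm_nonneg _))
  · have h1 : ∀ᵐ x ∂ρ, ‖T x - S x‖ ≤ 2 * L := by
      filter_upwards [hTR, hSR] with x h1 h2
      calc ‖T x - S x‖ ≤ ‖T x‖ + ‖S x‖ := norm_sub_le _ _
        _ ≤ 2 * L := by linarith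
    have h2 : Integrable (fun x => ‖T x - S x‖) ρ := by
      apply Integrable.of_bound (by fun_prop) (2 * L)
      simpa using h1
    calc ∫ x, ‖T x - S x‖ ∂ρ ≤ ∫ _x, (2 * L : ℝ) ∂ρ :=
          integral_mono_ae h2 (integrable_const _) h1
      _ = 2 * L := by simp
  · intro r hr hr1
    have := core_bound hb0 c L hρ hφ hφc hψ hT hS hTφ hSψ hTR hSR hγ hr hr1
    refine this.trans (le_of_eq ?_)
    ring

lemma exists_potential {K : Set (Rd d)} (hKc : Convex ℝ K) (hK : IsCompact K)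
    (hKi : (interior K).Nonempty) {e : Rd d} (he : ‖e‖ = 1) {μ : Measure (Rd d)} {L : ℝ≥0}
    (hμ : ∀ᵐ y ∂μ, ‖y‖ ≤ L) {T : Rd d → Rd d} (hT : IsOptimalMap (unif K) μ T) :
    ∃ φ : Rd d → ℝ, LipschitzWith L φ ∧ ConvexOn ℝ univ φ ∧
      ∀ᵐ x ∂(unif K), ∀ z, φ x + inner ℝ (T x) (z - x) ≤ φ z := by
  have hKm : MeasurableSet K := hK.measurableSet
  have hKt : volume K ≠ ∞ := hK.measure_lt_top.ne
  have hKpos : 0 < volume K :=
    (isOpen_interior.measure_pos volume hKi).trans_le (measure_mono interior_subset)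
  have hTR : ∀ᵐ y ∂(volume.restrict K), ‖T y‖ ≤ L := by
    rw [← ae_unif hKt]
    have := hμ
    rw [← hT.2.1] at this
    exact ae_of_ae_map hT.1.aemeasurable this
  have hTi : IntegrableOn T K := by
    have : IsFiniteMeasure (volume.restrict K) := ⟨by simpa using hK.measure_lt_top⟩
    exact Integrable.of_bound hT.1.aestronglyMeasurable L hTR
  have hgood := ae_good hK hKc hTi
  set G : Set (Rd d) := {x | Good K T x ∧ ‖T x‖ ≤ L} with hG
  have hGae : ∀ᵐ x ∂(volume.restrict K), x ∈ G := by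
    filter_upwards [hgood, hTR] with x h1 h2 using ⟨h1, h2⟩
  have hGne : G.Nonempty := by
    by_contra h
    rw [not_nonempty_iff_eq_empty] at h
    rw [h] at hGae
    have h2 : volume.restrict K = 0 := by
      rw [← ae_eq_bot]
      exact Filter.empty_mem_iff_bot.1 (by filter_upwards [hGae] with x hx using hx)
    rw [Measure.restrict_eq_zero] at h2
    exact hKpos.ne' h2
  obtain ⟨φ, h1, h2, h3⟩ := rockafellar (fun x hx => hx.2) hGne
    (fun n x hx σ => cyclic_mono hK hμ hT he (fun i => (hx i).1) σ)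
  refine ⟨φ, h1, h2, ?_⟩
  rw [ae_unif hKt]
  filter_upwards [hGae] with x hx using h3 x hx

/-- `L¹` and `L²` estimates in terms of couplings. -/
theorem enn_bounds {b₀ : ℝ} (hb0 : 0 ≤ b₀) (c L : ℝ≥0)
    {ρ : Measure (Rd d)} [IsProbabilityMeasure ρ]
    (hρ : ρ ≤ c • volume.restrict (closedBall (0 : Rd d) b₀))
    {φ ψ : Rd d → ℝ} (hφ : LipschitzWith L φ) (hφc : ConvexOn ℝ univ φ) (hψ : LipschitzWith L ψ)
    {T S : Rd d → Rd d} (hT : Measurable T) (hS : Measurable S)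
    (hTφ : ∀ᵐ x ∂ρ, ∀ z, φ x + inner ℝ (T x) (z - x) ≤ φ z)
    (hSψ : ∀ᵐ x ∂ρ, ∀ z, ψ x + inner ℝ (S x) (z - x) ≤ ψ z)
    (hTR : ∀ᵐ x ∂ρ, ‖T x‖ ≤ L) (hSR : ∀ᵐ x ∂ρ, ‖S x‖ ≤ L)
    {γ : Measure (Rd d × Rd d)} (hγ : IsCoupling (ρ.map T) (ρ.map S) γ) {C : ℝ≥0}
    (hC : (d * (2 * (b₀ + 1)) +
      d * (c * (L * (volume (closedBall (0 : Rd d) (b₀ + 2))).toReal)) + 2 * L) ≤ C) :
    eLpNorm (T - S) 1 ρ ≤ C * (∫⁻ z, ‖z.1 - z.2‖ₑ ∂γ) ^ (1 / 2 : ℝ) ∧
    eLpNorm (T - S) 2 ρ ≤ C * (∫⁻ z, ‖z.1 - z.2‖ₑ ∂γ) ^ (1 / 4 : ℝ) := by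
  have hTi : Integrable T ρ := Integrable.of_bound hT.aestronglyMeasurable L hTR
  have hSi : Integrable S ρ := Integrable.of_bound hS.aestronglyMeasurable L hSR
  have l1 : Integrable (fun z : Rd d × Rd d => z.1) γ := by
    have : Integrable (fun y : Rd d => y) (γ.map Prod.fst) := by
      rw [hγ.1]
      exact (integrable_map_measure aestronglyMeasurable_id hT.aemeasurable).2 hTi
    exact (integrable_map_measure aestronglyMeasurable_id measurable_fst.aemeasurable).1 this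
  have l2 : Integrable (fun z : Rd d × Rd d => z.2) γ := by
    have : Integrable (fun y : Rd d => y) (γ.map Prod.snd) := by
      rw [hγ.2]
      exact (integrable_map_measure aestronglyMeasurable_id hS.aemeasurable).2 hSi
    exact (integrable_map_measure aestronglyMeasurable_id measurable_snd.aemeasurable).1 this
  have hlin : ∫⁻ z, ‖z.1 - z.2‖ₑ ∂γ = ENNReal.ofReal (∫ z, ‖z.1 - z.2‖ ∂γ) :=
    (ofReal_integral_norm_eq_lintegral_enorm (l1.sub l2)).symm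
  have hlin2 : ∫⁻ x, ‖T x - S x‖ₑ ∂ρ = ENNReal.ofReal (∫ x, ‖T x - S x‖ ∂ρ) :=
    (ofReal_integral_norm_eq_lintegral_enorm (hTi.sub hSi)).symm
  have hw0 : 0 ≤ ∫ z, ‖z.1 - z.2‖ ∂γ := integral_nonneg (fun z => norm_nonneg _)
  have hmain := l1_real hb0 c L hρ hφ hφc hψ hT hS hTφ hSψ hTR hSR hγ
  have hL1 : ∫⁻ x, ‖T x - S x‖ₑ ∂ρ ≤ C * (∫⁻ z, ‖z.1 - z.2‖ₑ ∂γ) ^ (1 / 2 : ℝ) := by
    rw [hlin, hlin2, ENNReal.ofReal_rpow_of_nonneg hw0 (by norm_num)]
    rw [← ENNReal.ofReal_coe_nnreal, ← ENNReal.ofReal_mul (NNReal.coe_nonneg C)]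
    apply ENNReal.ofReal_le_ofReal
    refine hmain.trans ?_
    rw [← Real.sqrt_eq_rpow]
    gcongr
  refine ⟨?_, ?_⟩
  · rw [eLpNorm_one_eq_lintegral_enorm]
    exact hL1
  · have h2L : (2 * L : ℝ≥0) ≤ C := by
      rw [← NNReal.coe_le_coe]
      refine le_trans ?_ hC
      push_cast
      have : 0 ≤ d * (2 * (b₀ + 1)) +
        d * (c * (L * (volume (closedBall (0 : Rd d) (b₀ + 2))).toReal)) := by positivity
      linarith
    have hb : ∀ᵐ x ∂ρ, ‖T x - S x‖ₑ ^ (2:ℝ) ≤ C * ‖T x - S x‖ₑ := by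
      filter_upwards [hTR, hSR] with x h1 h2
      have h3 : ‖T x - S x‖ₑ ≤ C := by
        have h4 : ‖T x - S x‖ ≤ C :=
          calc ‖T x - S x‖ ≤ ‖T x‖ + ‖S x‖ := norm_sub_le _ _
            _ ≤ 2 * L := by linarith
            _ ≤ C := by exact_mod_cast h2L
        rw [← ofReal_norm, ← ENNReal.ofReal_coe_nnreal]
        exact ENNReal.ofReal_le_ofReal h4
      rw [ENNReal.rpow_two, pow_two]
      gcongr
    have hsq : ∫⁻ x, ‖T x - S x‖ₑ ^ (2:ℝ) ∂ρ ≤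
        C * (C * (∫⁻ z, ‖z.1 - z.2‖ₑ ∂γ) ^ (1 / 2 : ℝ)) := by
      calc ∫⁻ x, ‖T x - S x‖ₑ ^ (2:ℝ) ∂ρ ≤ ∫⁻ x, C * ‖T x - S x‖ₑ ∂ρ := lintegral_mono_ae hb
        _ = C * ∫⁻ x, ‖T x - S x‖ₑ ∂ρ := lintegral_const_mul _ (by fun_prop)
        _ ≤ _ := by gcongr
    rw [eLpNorm_eq_lintegral_rpow_enorm_toReal (by norm_num) (by norm_num)]
    simp only [ENNReal.toReal_ofNat, Pi.sub_apply]
    calc (∫⁻ x, ‖T x - S x‖ₑ ^ (2:ℝ) ∂ρ) ^ (1 / (2:ℝ))
        ≤ (C * (C * (∫⁻ z, ‖z.1 - z.2‖ₑ ∂γ) ^ (1 / 2 : ℝ))) ^ (1 / (2:ℝ)) := by gcongr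
      _ = C * (∫⁻ z, ‖z.1 - z.2‖ₑ ∂γ) ^ (1 / 4 : ℝ) := by
        rw [← mul_assoc, ENNReal.mul_rpow_of_nonneg _ _ (by norm_num), ← pow_two,
          ← ENNReal.rpow_two, ← ENNReal.rpow_mul, ← ENNReal.rpow_mul]
        norm_num

/-- Pass to the infimum over couplings. -/
lemma le_wass {p q : ℝ} (hq : 0 < q) {μ ν : Measure (Rd d)} {a : ℝ≥0∞}
    {C : ℝ≥0} (hC : C ≠ 0) (h : ∀ γ : Measure (Rd d × Rd d), IsCoupling μ ν γ →
      a ≤ C * ((∫⁻ z, ‖z.1 - z.2‖ₑ ^ p ∂γ) ^ (1 / p)) ^ q) :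
    a ≤ C * wass p μ ν ^ q := by
  have hC' : (C : ℝ≥0∞) ≠ 0 := by exact_mod_cast hC
  have hCt : (C : ℝ≥0∞) ≠ ∞ := ENNReal.coe_ne_top
  rw [← ENNReal.div_le_iff' hC' hCt, ← ENNReal.rpow_inv_le_iff hq]
  unfold wass
  refine le_iInf (fun γ => le_iInf (fun hγ => ?_))
  rw [ENNReal.rpow_inv_le_iff hq, ENNReal.div_le_iff' hC' hCt]
  exact h γ hγ

lemma coupling_prob {μ ν : Measure (Rd d)} [IsProbabilityMeasure μ]
    {γ : Measure (Rd d × Rd d)} (hγ : IsCoupling μ ν γ) : IsProbabilityMeasure γ := by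
  constructor
  have h1 : (γ.map Prod.fst) univ = 1 := by rw [hγ.1]; exact measure_univ
  rw [Measure.map_apply measurable_fst MeasurableSet.univ] at h1
  simpa using h1

lemma wass_one_le_two {μ ν : Measure (Rd d)} [IsProbabilityMeasure μ] :
    wass 1 μ ν ≤ wass 2 μ ν := by
  unfold wass
  refine iInf_mono (fun γ => iInf_mono (fun hγ => ?_))
  have := coupling_prob hγ
  have h1 : AEStronglyMeasurable (fun z : Rd d × Rd d => z.1 - z.2) γ := by fun_prop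
  have h2 := eLpNorm_le_eLpNorm_of_exponent_le (μ := γ) (p := 1) (q := 2)
    (by norm_num : (1 : ℝ≥0∞) ≤ 2) h1
  rw [eLpNorm_one_eq_lintegral_enorm, eLpNorm_eq_lintegral_rpow_enorm_toReal (by norm_num)
    (by norm_num)] at h2
  simpa using h2

/-- The stability theorem. -/
theorem stability {K : Set (Rd d)} (hd : 1 ≤ d) (hKc : Convex ℝ K) (hK : IsCompact K)
    (hKi : (interior K).Nonempty) {Y : Set (Rd d)} (hY : IsCompact Y) :
    ∃ C : ℝ≥0, ∀ μ ν : Measure (Rd d), IsProbabilityMeasure μ → IsProbabilityMeasure ν →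
      μ Yᶜ = 0 → ν Yᶜ = 0 →
        ∀ T S : Rd d → Rd d, IsOptimalMap (unif K) μ T → IsOptimalMap (unif K) ν S →
          eLpNorm (T - S) 1 (unif K) ≤ C * wass 1 μ ν ^ (1 / 2 : ℝ) ∧
          eLpNorm (T - S) 2 (unif K) ≤ C * wass 1 μ ν ^ (1 / 4 : ℝ) ∧
          eLpNorm (T - S) 2 (unif K) ≤ C * wass 2 μ ν ^ (1 / 4 : ℝ) := by
  obtain ⟨bY, hbY⟩ := hY.isBounded.exists_norm_le
  obtain ⟨bK, hbK⟩ := hK.isBounded.exists_norm_le
  set L : ℝ≥0 := bY.toNNReal with hL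
  set b₀ : ℝ := max bK 0 with hb₀
  have hb0 : 0 ≤ b₀ := le_max_right _ _
  have hKt : volume K ≠ ∞ := hK.measure_lt_top.ne
  have hKpos : 0 < volume K :=
    (isOpen_interior.measure_pos volume hKi).trans_le (measure_mono interior_subset)
  have hprob := unif_prob hKpos.ne' hKt
  set c : ℝ≥0 := ((volume K)⁻¹).toNNReal with hc
  have hcc : (c : ℝ≥0∞) = (volume K)⁻¹ := ENNReal.coe_toNNReal (by simpa using hKpos.ne')
  have hρ : unif K ≤ c • volume.restrict (closedBall (0 : Rd d) b₀) := by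
    have h1 : unif K = c • volume.restrict K := by
      unfold unif
      rw [← hcc]
      rfl
    rw [h1]
    have h2 : K ⊆ closedBall (0 : Rd d) b₀ := by
      intro x hx
      rw [mem_closedBall_zero_iff]
      exact (hbK x hx).trans (le_max_left _ _)
    have h3 := Measure.restrict_mono h2 (le_refl (volume : Measure (Rd d)))
    intro s
    simp only [Measure.smul_apply]
    gcongr
  set e : Rd d := EuclideanSpace.single (⟨0, hd⟩ : Fin d) (1:ℝ) with he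
  have hen : ‖e‖ = 1 := by rw [he, PiLp.norm_single]; simp
  set A : ℝ := (d * (2 * (b₀ + 1)) +
      d * (c * (L * (volume (closedBall (0 : Rd d) (b₀ + 2))).toReal)) + 2 * L) with hA
  set C : ℝ≥0 := A.toNNReal + 1 with hC
  have hC0 : C ≠ 0 := by positivity
  have hAC : A ≤ C := by
    rw [hC]
    push_cast
    have := Real.le_coe_toNNReal A
    linarith
  refine ⟨C, ?_⟩
  intro μ ν hμ hν hμY hνY T S hT hS
  have hbound : ∀ κ : Measure (Rd d), κ Yᶜ = 0 → ∀ᵐ y ∂κ, ‖y‖ ≤ L := by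
    intro κ hκ
    have h1 : ∀ᵐ y ∂κ, y ∈ Y := hκ
    filter_upwards [h1] with y hy
    exact (hbY y hy).trans (Real.le_coe_toNNReal bY)
  have hμb := hbound μ hμY
  have hνb := hbound ν hνY
  obtain ⟨φ, h1, h2, h3⟩ := exists_potential hKc hK hKi hen hμb hT
  obtain ⟨ψ, k1, _, k3⟩ := exists_potential hKc hK hKi hen hνb hS
  have hTR : ∀ᵐ x ∂(unif K), ‖T x‖ ≤ L := by
    have := hμb
    rw [← hT.2.1] at this
    exact ae_of_ae_map hT.1.aemeasurable this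
  have hSR : ∀ᵐ x ∂(unif K), ‖S x‖ ≤ L := by
    have := hνb
    rw [← hS.2.1] at this
    exact ae_of_ae_map hS.1.aemeasurable this
  have hkey : ∀ γ : Measure (Rd d × Rd d), IsCoupling μ ν γ →
      eLpNorm (T - S) 1 (unif K) ≤ C * (∫⁻ z, ‖z.1 - z.2‖ₑ ∂γ) ^ (1 / 2 : ℝ) ∧
      eLpNorm (T - S) 2 (unif K) ≤ C * (∫⁻ z, ‖z.1 - z.2‖ₑ ∂γ) ^ (1 / 4 : ℝ) := by
    intro γ hγ
    have hγ' : IsCoupling ((unif K).map T) ((unif K).map S) γ := by
      rw [hT.2.1, hS.2.1]; exact hγ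
    exact enn_bounds hb0 c L hρ h1 h2 k1 hT.1 hS.1 h3 k3 hTR hSR hγ' hAC
  have hE2 : eLpNorm (T - S) 2 (unif K) ≤ C * wass 1 μ ν ^ (1 / 4 : ℝ) := by
    apply le_wass (by norm_num) hC0
    intro γ hγ
    simpa using (hkey γ hγ).2
  refine ⟨?_, hE2, ?_⟩
  · apply le_wass (by norm_num) hC0
    intro γ hγ
    simpa using (hkey γ hγ).1
  · refine hE2.trans ?_
    gcongr
    exact wass_one_le_two

theorem admissible_quarter (hd : 1 ≤ d) : IsAdmissible d (1 / 4) := by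
  intro K hKc hK hKi Y hY _
  obtain ⟨C, hC⟩ := stability hd hKc hK hKi hY
  exact ⟨C, fun μ ν h1 h2 h3 h4 T S h5 h6 => (hC μ ν h1 h2 h3 h4 T S h5 h6).2.2⟩

theorem quarter_le_alphaStar (hd : 1 ≤ d) : 1 / 4 ≤ alphaStar d := by
  apply le_csSup
  · exact ⟨1, fun α h => h.2.1⟩
  · exact ⟨by norm_num, by norm_num, admissible_quarter hd⟩

end Vale.Agent.P074Q
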