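import Vale.Agent.Lib.P074Q.Defs

open MeasureTheory Set Metric
open scoped ENNReal NNReal

namespace Vale.Agent.P074Q

variable {d : ℕ}

/-- The cutoff function. -/
noncomputable def cutoff (ρ : ℝ) (x : Rd d) : ℝ := max 0 (min 1 (ρ + 1 - ‖x‖))

lemma cutoff_nonneg (ρ : ℝ) (x : Rd d) : 0 ≤ cutoff ρ x := le_max_left _ _

lemma cutoff_eq_one {ρ : ℝ} {x : Rd d} (h : ‖x‖ ≤ ρ) : cutoff ρ x = 1 := by
  unfold cutoff
  rw [min_eq_left (by linarith)]
  simp

lemma cutoff_eq_zero {ρ : ℝ} {x : Rd d} (h : ρ + 1 ≤ ‖x‖) : cutoff ρ x = 0 := by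
  unfold cutoff
  rw [max_eq_left]
  exact (min_le_right _ _).trans (by linarith)

lemma cutoff_lip (ρ : ℝ) (x y : Rd d) : |cutoff ρ x - cutoff ρ y| ≤ ‖x - y‖ := by
  unfold cutoff
  have h1 := abs_max_sub_max_le_abs (min 1 (ρ + 1 - ‖x‖)) (min 1 (ρ + 1 - ‖y‖)) 0
  rw [max_comm _ (0:ℝ), max_comm _ (0:ℝ)] at h1
  refine h1.trans ?_
  have h2 := abs_min_sub_min_le_max 1 (ρ + 1 - ‖x‖) 1 (ρ + 1 - ‖y‖)
  refine h2.trans ?_
  rw [sub_self, abs_zero, max_eq_right (abs_nonneg _)]
  have : ρ + 1 - ‖x‖ - (ρ + 1 - ‖y‖) = -(‖x‖ - ‖y‖) := by ring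
  rw [this, abs_neg]
  exact abs_norm_sub_norm_le x y

lemma cutoff_continuous (ρ : ℝ) : Continuous (cutoff ρ : Rd d → ℝ) := by
  unfold cutoff
  fun_prop

lemma cutoff_hasCompactSupport (ρ : ℝ) : HasCompactSupport (cutoff ρ : Rd d → ℝ) := by
  apply HasCompactSupport.intro (isCompact_closedBall (0 : Rd d) (ρ + 1))
  intro x hx
  apply cutoff_eq_zero
  rw [mem_closedBall_zero_iff] at hx
  linarith

/-- The symmetric second difference of `φ` at `x` in the direction `v`. -/
noncomputable def sdiff2 (φ : Rd d → ℝ) (v x : Rd d) : ℝ := φ (x + v) + φ (x - v) - 2 * φ x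

lemma sdiff2_nonneg {φ : Rd d → ℝ} (hφ : ConvexOn ℝ univ φ) (v x : Rd d) : 0 ≤ sdiff2 φ v x := by
  have h := hφ.2 (mem_univ (x + v)) (mem_univ (x - v)) (by norm_num : (0:ℝ) ≤ 1/2)
    (by norm_num : (0:ℝ) ≤ 1/2) (by norm_num)
  have h2 : (1/2 : ℝ) • (x + v) + (1/2 : ℝ) • (x - v) = x := by
    rw [← smul_add]
    have : x + v + (x - v) = (2:ℝ) • x := by rw [two_smul]; abel
    rw [this, smul_smul]; norm_num
  rw [h2] at h
  unfold sdiff2
  simp only [smul_eq_mul] at h
  linarith

theorem integral_sdiff2_le {φ : Rd d → ℝ} {L : ℝ≥0} (hφ : LipschitzWith L φ)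
    (hc : ConvexOn ℝ univ φ) {ρ : ℝ} (v : Rd d) (hv : ‖v‖ ≤ 1) :
    ∫ x in closedBall (0 : Rd d) ρ, sdiff2 φ v x ≤
      L * ‖v‖ ^ 2 * (volume (closedBall (0 : Rd d) (ρ + 2))).toReal := by
  have hφc : Continuous φ := hφ.continuous
  set χ : Rd d → ℝ := cutoff ρ with hχ
  have hχc : Continuous χ := cutoff_continuous ρ
  have hχs : HasCompactSupport χ := cutoff_hasCompactSupport ρ
  set ψ : Rd d → ℝ := fun x => φ (x + v) - φ x with hψ
  have hψc : Continuous ψ := by fun_prop
  have hsc : Continuous (sdiff2 φ v) := by unfold sdiff2; fun_prop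
  -- step 1
  have h1 : ∫ x in closedBall (0 : Rd d) ρ, sdiff2 φ v x ≤ ∫ x, χ x * sdiff2 φ v x := by
    have hint : Integrable (fun x => χ x * sdiff2 φ v x) := by
      apply Continuous.integrable_of_hasCompactSupport (hχc.mul hsc)
      exact hχs.mul_right
    calc ∫ x in closedBall (0 : Rd d) ρ, sdiff2 φ v x
        = ∫ x in closedBall (0 : Rd d) ρ, χ x * sdiff2 φ v x := by
          apply setIntegral_congr_fun measurableSet_closedBall
          intro x hx
          rw [mem_closedBall_zero_iff] at hx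
          simp [hχ, cutoff_eq_one hx]
      _ ≤ ∫ x, χ x * sdiff2 φ v x := by
          apply setIntegral_le_integral hint
          filter_upwards with x
          exact mul_nonneg (cutoff_nonneg _ _) (sdiff2_nonneg hc _ _)
  -- step 2
  have h2 : ∫ x, χ x * sdiff2 φ v x = ∫ x, (χ x - χ (x + v)) * ψ x := by
    have e1 : ∀ x, χ x * sdiff2 φ v x = χ x * ψ x - χ x * ψ (x - v) := by
      intro x
      simp only [hψ, sdiff2, sub_add_cancel]
      ring
    simp_rw [e1]
    have i1 : Integrable (fun x => χ x * ψ x) :=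
      Continuous.integrable_of_hasCompactSupport (hχc.mul hψc) hχs.mul_right
    have i2 : Integrable (fun x => χ x * ψ (x - v)) :=
      Continuous.integrable_of_hasCompactSupport (hχc.mul (by fun_prop)) hχs.mul_right
    rw [integral_sub i1 i2]
    have e2 : ∫ x, χ x * ψ (x - v) = ∫ x, χ (x + v) * ψ x := by
      rw [← integral_add_right_eq_self (fun x => χ x * ψ (x - v)) v]
      simp
    have i3 : Integrable (fun x => χ (x + v) * ψ x) := by
      have := i2.comp_add_right v
      simpa using this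
    rw [e2, ← integral_sub i1 i3]
    congr 1
    ext x
    ring
  -- step 3
  have h3 : ∫ x, (χ x - χ (x + v)) * ψ x ≤
      ∫ x in closedBall (0 : Rd d) (ρ + 2), (L * ‖v‖ ^ 2 : ℝ) := by
    have hz : ∀ x, x ∉ closedBall (0 : Rd d) (ρ + 2) → (χ x - χ (x + v)) * ψ x = 0 := by
      intro x hx
      rw [mem_closedBall_zero_iff, not_le] at hx
      have a1 : χ x = 0 := cutoff_eq_zero (by linarith)
      have a2 : χ (x + v) = 0 := by
        apply cutoff_eq_zero
        have := norm_sub_norm_le x (-v)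
        rw [norm_neg, sub_neg_eq_add] at this
        linarith
      rw [a1, a2]; ring
    rw [← setIntegral_eq_integral_of_forall_compl_eq_zero hz]
    apply setIntegral_mono_on
    · exact (Continuous.continuousOn (by fun_prop)).integrableOn_compact (isCompact_closedBall _ _)
    · exact (Continuous.continuousOn (by fun_prop)).integrableOn_compact (isCompact_closedBall _ _)
    · exact measurableSet_closedBall
    · intro x _
      have b1 : |χ x - χ (x + v)| ≤ ‖v‖ := by
        have := cutoff_lip ρ x (x + v)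
        simpa using this
      have b2 : |ψ x| ≤ L * ‖v‖ := by
        have := hφ.dist_le_mul (x + v) x
        simpa [hψ, Real.dist_eq] using this
      calc (χ x - χ (x + v)) * ψ x ≤ |(χ x - χ (x + v)) * ψ x| := le_abs_self _
        _ = |χ x - χ (x + v)| * |ψ x| := abs_mul _ _
        _ ≤ ‖v‖ * (L * ‖v‖) := by gcongr
        _ = L * ‖v‖ ^ 2 := by ring
  refine h1.trans (h2.le.trans (h3.trans (le_of_eq ?_)))
  rw [setIntegral_const]
  simp [Measure.real]
  ring

end Vale.Agent.P074Q
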