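import Vale.Agent.Lib.P074Q.Defs

open MeasureTheory Set Metric
open scoped ENNReal NNReal

namespace Vale.Agent.P074Q

variable {d : ℕ}

/-- Optimality in terms of the correlation. -/
lemma inner_le_of_optimal {ρ μ : Measure (Rd d)} [IsProbabilityMeasure ρ] {b R : ℝ}
    (hρ : ∀ᵐ x ∂ρ, ‖x‖ ≤ b) (hμ : ∀ᵐ y ∂μ, ‖y‖ ≤ R) {T : Rd d → Rd d}
    (hT : IsOptimalMap ρ μ T) {S : Rd d → Rd d} (hS : Measurable S) (hSμ : ρ.map S = μ) :
    ∫ x, inner ℝ x (S x) ∂ρ ≤ ∫ x, inner ℝ x (T x) ∂ρ := by
  obtain ⟨hTm, hTμ, hopt⟩ := hT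
  have hcost := hopt S hS hSμ
  have hxi : Integrable (fun x : Rd d => ‖x‖ ^ 2) ρ := by
    apply Integrable.of_bound (by fun_prop) (b ^ 2)
    filter_upwards [hρ] with x hx
    rw [Real.norm_eq_abs, abs_of_nonneg (by positivity)]
    gcongr
  have key : ∀ F : Rd d → Rd d, Measurable F → ρ.map F = μ →
      ∫⁻ x, ‖x - F x‖ₑ ^ 2 ∂ρ = ENNReal.ofReal ((∫ x, ‖x‖ ^ 2 ∂ρ) - 2 * (∫ x, inner ℝ x (F x) ∂ρ)
        + ∫ y, ‖y‖ ^ 2 ∂μ) ∧ 0 ≤ (∫ x, ‖x‖ ^ 2 ∂ρ) - 2 * (∫ x, inner ℝ x (F x) ∂ρ)
        + ∫ y, ‖y‖ ^ 2 ∂μ := by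
    intro F hF hFμ
    have hFR : ∀ᵐ x ∂ρ, ‖F x‖ ≤ R := by
      rw [← hFμ] at hμ
      exact ae_of_ae_map hF.aemeasurable hμ
    have i1 : Integrable (fun x => inner ℝ x (F x)) ρ := by
      apply Integrable.of_bound (by fun_prop) (b * R)
      filter_upwards [hρ, hFR] with x h1 h2
      refine (norm_inner_le_norm _ _).trans ?_
      have := norm_nonneg x
      gcongr
      linarith
    have i2 : Integrable (fun x => ‖F x‖ ^ 2) ρ := by
      apply Integrable.of_bound (by fun_prop) (R ^ 2)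
      filter_upwards [hFR] with x hx
      rw [Real.norm_eq_abs, abs_of_nonneg (by positivity)]
      gcongr
    have e1 : ∫ y, ‖y‖ ^ 2 ∂μ = ∫ x, ‖F x‖ ^ 2 ∂ρ := by
      rw [← hFμ, integral_map hF.aemeasurable (by fun_prop)]
    have e2 : ∀ x, ‖x - F x‖ ^ 2 = ‖x‖ ^ 2 - 2 * inner ℝ x (F x) + ‖F x‖ ^ 2 :=
      fun x => norm_sub_sq_real x (F x)
    have i3 : Integrable (fun x => ‖x - F x‖ ^ 2) ρ := by
      simp_rw [e2]
      exact (hxi.sub (i1.const_mul 2)).add i2
    have e3 : ∫ x, ‖x - F x‖ ^ 2 ∂ρ = (∫ x, ‖x‖ ^ 2 ∂ρ) - 2 * (∫ x, inner ℝ x (F x) ∂ρ)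
        + ∫ y, ‖y‖ ^ 2 ∂μ := by
      have i4 : Integrable (fun x => ‖x‖ ^ 2 - 2 * inner ℝ x (F x)) ρ :=
        hxi.sub (i1.const_mul 2)
      rw [e1, ← integral_const_mul, ← integral_sub hxi (i1.const_mul 2), ← integral_add i4 i2]
      congr 1
      ext x
      exact e2 x
    rw [← e3]
    constructor
    · rw [ofReal_integral_eq_lintegral_ofReal i3 (Filter.Eventually.of_forall
        (fun x => by positivity))]
      congr 1
      ext x
      rw [← ofReal_norm, ENNReal.ofReal_pow (norm_nonneg _)]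
    · exact integral_nonneg (fun x => by positivity)
  obtain ⟨kT, _⟩ := key T hTm hTμ
  obtain ⟨kS, hS0⟩ := key S hS hSμ
  rw [kT, kS, ENNReal.ofReal_le_ofReal_iff hS0] at hcost
  linarith

/-- The swapped map: on the ball around `x j` we use the values of `T` near `x (σ.symm j)`. -/
noncomputable def swapMap {n : ℕ} (T : Rd d → Rd d) (x : Fin n → Rd d) (ε : ℝ)
    (σ : Equiv.Perm (Fin n)) (y : Rd d) : Rd d :=
  T y + ∑ j : Fin n, (closedBall (x j) ε).indicator
    (fun y => T (y + (x (σ.symm j) - x j)) - T y) y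

lemma swapMap_measurable {n : ℕ} {T : Rd d → Rd d} (hT : Measurable T) (x : Fin n → Rd d) (ε : ℝ)
    (σ : Equiv.Perm (Fin n)) : Measurable (swapMap T x ε σ) := by
  unfold swapMap
  apply hT.add
  apply Finset.measurable_sum
  intro j _
  apply Measurable.indicator _ measurableSet_closedBall
  exact (hT.comp (measurable_id.add_const _)).sub hT

lemma swapMap_of_mem {n : ℕ} {T : Rd d → Rd d} {x : Fin n → Rd d} {ε : ℝ}
    (hdis : Pairwise (fun i j => Disjoint (closedBall (x i) ε) (closedBall (x j) ε)))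
    (σ : Equiv.Perm (Fin n)) {j : Fin n} {y : Rd d} (hy : y ∈ closedBall (x j) ε) :
    swapMap T x ε σ y = T (y + (x (σ.symm j) - x j)) := by
  unfold swapMap
  rw [Finset.sum_eq_single j]
  · rw [indicator_of_mem hy]; abel
  · intro i _ hi
    apply indicator_of_notMem
    intro h
    exact (Set.disjoint_left.1 (hdis hi) h) hy
  · simp

lemma swapMap_of_notMem {n : ℕ} {T : Rd d → Rd d} {x : Fin n → Rd d} {ε : ℝ}
    (σ : Equiv.Perm (Fin n)) {y : Rd d} (hy : y ∉ ⋃ j, closedBall (x j) ε) :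
    swapMap T x ε σ y = T y := by
  unfold swapMap
  rw [Finset.sum_eq_zero, add_zero]
  intro j _
  apply indicator_of_notMem
  intro h
  exact hy (mem_iUnion.2 ⟨j, h⟩)

lemma preimage_add_closedBall (a v : Rd d) (ε : ℝ) :
    (fun y => y + v) ⁻¹' closedBall (a + v) ε = closedBall a ε := by
  ext y
  simp [mem_closedBall, dist_eq_norm]

lemma lintegral_swap_ball {T : Rd d → Rd d} (F : Rd d → ℝ≥0∞) (a c : Rd d) (ε : ℝ) :
    ∫⁻ y in closedBall a ε, F (T (y + (c - a))) = ∫⁻ y in closedBall c ε, F (T y) := by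
  have h := (measurePreserving_add_right (volume : Measure (Rd d)) (c - a)).setLIntegral_comp_preimage_emb
    (measurableEmbedding_addRight (c - a)) (fun y => F (T y)) (closedBall (a + (c - a)) ε)
  rw [preimage_add_closedBall, add_sub_cancel] at h
  exact h

lemma lintegral_swapMap {n : ℕ} {K : Set (Rd d)} (hK : MeasurableSet K) {T : Rd d → Rd d}
    {x : Fin n → Rd d} {ε : ℝ}
    (hdis : Pairwise (fun i j => Disjoint (closedBall (x i) ε) (closedBall (x j) ε)))
    (hsub : ∀ j, closedBall (x j) ε ⊆ K) (σ : Equiv.Perm (Fin n))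
    (F : Rd d → ℝ≥0∞) :
    ∫⁻ y in K, F (swapMap T x ε σ y) = ∫⁻ y in K, F (T y) := by
  set U : Set (Rd d) := ⋃ j, closedBall (x j) ε with hU
  have hUm : MeasurableSet U := MeasurableSet.iUnion (fun j => measurableSet_closedBall)
  have hUK : U ⊆ K := iUnion_subset hsub
  have hsplit : ∀ G : Rd d → ℝ≥0∞, ∫⁻ y in K, G y = (∑ j, ∫⁻ y in closedBall (x j) ε, G y) +
      ∫⁻ y in K \ U, G y := by
    intro G
    rw [← lintegral_inter_add_sdiff G K hUm, inter_eq_self_of_subset_right hUK, hU,
      lintegral_iUnion (fun j => measurableSet_closedBall) hdis, tsum_fintype]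
  rw [hsplit, hsplit]
  congr 1
  · rw [← Equiv.sum_comp σ.symm (fun j => ∫⁻ y in closedBall (x j) ε, F (T y))]
    apply Finset.sum_congr rfl
    intro j _
    rw [← lintegral_swap_ball F (x j) (x (σ.symm j)) ε]
    apply setLIntegral_congr_fun measurableSet_closedBall
    intro y hy
    simp only
    rw [swapMap_of_mem hdis σ hy]
  · apply setLIntegral_congr_fun (hK.diff hUm)
    intro y hy
    simp only
    rw [swapMap_of_notMem σ hy.2]

lemma map_swapMap {n : ℕ} {K : Set (Rd d)} (hK : MeasurableSet K) {T : Rd d → Rd d}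
    (hT : Measurable T) {x : Fin n → Rd d} {ε : ℝ}
    (hdis : Pairwise (fun i j => Disjoint (closedBall (x i) ε) (closedBall (x j) ε)))
    (hsub : ∀ j, closedBall (x j) ε ⊆ K) (σ : Equiv.Perm (Fin n)) :
    (unif K).map (swapMap T x ε σ) = (unif K).map T := by
  apply Measure.ext_of_lintegral
  intro F hF
  rw [lintegral_map hF (swapMap_measurable hT x ε σ), lintegral_map hF hT, unif,
    lintegral_smul_measure, lintegral_smul_measure, lintegral_swapMap hK hdis hsub σ F]

lemma integral_swap_ball {T : Rd d → Rd d} (a c : Rd d) (ε : ℝ) :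
    ∫ y in closedBall a ε, inner ℝ y (T (y + (c - a))) =
      ∫ y in closedBall c ε, inner ℝ (y + (a - c)) (T y) := by
  have h := (measurePreserving_add_right (volume : Measure (Rd d)) (c - a)).setIntegral_preimage_emb
    (measurableEmbedding_addRight (c - a)) (fun y => (inner ℝ (y + (a - c)) (T y) : ℝ))
    (closedBall (a + (c - a)) ε)
  rw [preimage_add_closedBall, add_sub_cancel] at h
  rw [← h]
  congr 1
  ext y
  congr 1
  abel

lemma ae_unif {K : Set (Rd d)} (hKt : volume K ≠ ∞) {p : Rd d → Prop} :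
    (∀ᵐ x ∂(unif K), p x) ↔ ∀ᵐ x ∂(volume.restrict K), p x := by
  unfold unif
  exact Measure.ae_ennreal_smul_measure_iff (by simpa using hKt)

lemma unif_prob {K : Set (Rd d)} (hK0 : volume K ≠ 0) (hKt : volume K ≠ ∞) :
    IsProbabilityMeasure (unif K) := by
  constructor
  unfold unif
  rw [Measure.smul_apply, Measure.restrict_apply_univ, smul_eq_mul]
  exact ENNReal.inv_mul_cancel hK0 hKt

/-- The finite swap inequality. -/
theorem swap_ineq {n : ℕ} {K : Set (Rd d)} (hK : IsCompact K) (hK0 : volume K ≠ 0)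
    {μ : Measure (Rd d)} {R : ℝ} (hμ : ∀ᵐ y ∂μ, ‖y‖ ≤ R) {T : Rd d → Rd d}
    (hT : IsOptimalMap (unif K) μ T) {x : Fin n → Rd d} {ε : ℝ}
    (hdis : Pairwise (fun i j => Disjoint (closedBall (x i) ε) (closedBall (x j) ε)))
    (hsub : ∀ j, closedBall (x j) ε ⊆ K) (σ : Equiv.Perm (Fin n)) :
    ∑ i, inner ℝ (x (σ i) - x i) (∫ y in closedBall (x i) ε, T y) ≤ 0 := by
  have hKm : MeasurableSet K := hK.measurableSet
  have hKt : volume K ≠ ∞ := hK.measure_lt_top.ne
  have := unif_prob hK0 hKt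
  have hTm : Measurable T := hT.1
  set S : Rd d → Rd d := swapMap T x ε σ with hS
  have hSm : Measurable S := swapMap_measurable hTm x ε σ
  have hSμ : (unif K).map S = μ := by
    rw [hS, map_swapMap hKm hTm hdis hsub σ, hT.2.1]
  -- a bound for the ball containing `K`
  obtain ⟨b, hb⟩ := hK.isBounded.exists_norm_le
  have hρb : ∀ᵐ y ∂(unif K), ‖y‖ ≤ b := by
    rw [ae_unif hKt]
    filter_upwards [ae_restrict_mem hKm] with y hy using hb y hy
  have hTR : ∀ᵐ y ∂(volume.restrict K), ‖T y‖ ≤ R := by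
    rw [← ae_unif hKt]
    have := hμ
    rw [← hT.2.1] at this
    exact ae_of_ae_map hTm.aemeasurable this
  have h1 := inner_le_of_optimal hρb hμ hT hSm hSμ
  unfold unif at h1
  rw [integral_smul_measure, integral_smul_measure, smul_eq_mul, smul_eq_mul] at h1
  have hc : 0 < ((volume K)⁻¹).toReal :=
    ENNReal.toReal_pos (by simpa using hKt) (by simpa using hK0)
  have h2 := le_of_mul_le_mul_left h1 hc
  -- integrability
  have hTi : IntegrableOn T K := by
    have : IsFiniteMeasure (volume.restrict K) := ⟨by simpa using hK.measure_lt_top⟩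
    exact Integrable.of_bound hTm.aestronglyMeasurable R hTR
  have hball : ∀ i, IntegrableOn T (closedBall (x i) ε) := fun i => hTi.mono_set (hsub i)
  have hin : ∀ v : Rd d, IntegrableOn (fun y => (inner ℝ (y + v) (T y) : ℝ)) K := by
    intro v
    have : IsFiniteMeasure (volume.restrict K) := ⟨by simpa using hK.measure_lt_top⟩
    apply Integrable.of_bound (by fun_prop) ((b + ‖v‖) * R)
    filter_upwards [hTR, ae_restrict_mem hKm] with y h1 h2
    refine (norm_inner_le_norm _ _).trans ?_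
    have h3 := (norm_add_le y v).trans (add_le_add_left (hb y h2) ‖v‖)
    gcongr
    exact (norm_nonneg _).trans h3
  have hin0 : IntegrableOn (fun y => (inner ℝ y (T y) : ℝ)) K := by
    have := hin 0
    simpa using this
  have hsh : ∀ j, IntegrableOn (fun y => (inner ℝ y (T (y + (x (σ.symm j) - x j))) : ℝ))
      (closedBall (x j) ε) := by
    intro j
    have h3 := (measurePreserving_add_right (volume : Measure (Rd d))
      (x (σ.symm j) - x j)).integrableOn_comp_preimage
      (measurableEmbedding_addRight (x (σ.symm j) - x j))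
      (f := fun y => (inner ℝ (y + (x j - x (σ.symm j))) (T y) : ℝ))
      (s := closedBall (x j + (x (σ.symm j) - x j)) ε)
    rw [preimage_add_closedBall, add_sub_cancel] at h3
    have h4 := h3.2 ((hin _).mono_set (hsub _))
    refine h4.congr_fun ?_ measurableSet_closedBall
    intro y _
    simp only [Function.comp]
    congr 1
    abel
  set H : Fin n → Rd d → ℝ := fun j y =>
    inner ℝ y (T (y + (x (σ.symm j) - x j))) - inner ℝ y (T y) with hH
  have hHi : ∀ j, IntegrableOn (H j) (closedBall (x j) ε) := by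
    intro j
    exact (hsh j).sub (hin0.mono_set (hsub j))
  have hHi' : ∀ j, IntegrableOn ((closedBall (x j) ε).indicator (H j)) K := by
    intro j
    have : Integrable ((closedBall (x j) ε).indicator (H j)) :=
      (integrable_indicator_iff measurableSet_closedBall).2 (hHi j)
    exact this.integrableOn
  have hSinner : ∀ y, (inner ℝ y (S y) : ℝ) = inner ℝ y (T y) +
      ∑ j, (closedBall (x j) ε).indicator (H j) y := by
    intro y
    rw [hS]
    unfold swapMap
    rw [inner_add_right, inner_sum]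
    congr 1
    apply Finset.sum_congr rfl
    intro j _
    by_cases hy : y ∈ closedBall (x j) ε
    · rw [indicator_of_mem hy, indicator_of_mem hy, inner_sub_right]
    · rw [indicator_of_notMem hy, indicator_of_notMem hy, inner_zero_right]
  have hSint : ∫ y in K, (inner ℝ y (S y) : ℝ) = (∫ y in K, (inner ℝ y (T y) : ℝ)) +
      ∑ j, ∫ y in closedBall (x j) ε, H j y := by
    simp_rw [hSinner]
    rw [integral_add hin0 (integrable_finsetSum _ (fun j _ => hHi' j)),
      integral_finsetSum _ (fun j _ => hHi' j)]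
    congr 1
    apply Finset.sum_congr rfl
    intro j _
    rw [setIntegral_indicator measurableSet_closedBall, inter_eq_self_of_subset_right (hsub j)]
  have h3 : ∑ j, ∫ y in closedBall (x j) ε, H j y ≤ 0 := by
    rw [hSint] at h2
    linarith
  have h4 : ∀ j, ∫ y in closedBall (x j) ε, H j y =
      (∫ y in closedBall (x (σ.symm j)) ε, inner ℝ (y + (x j - x (σ.symm j))) (T y)) -
      ∫ y in closedBall (x j) ε, inner ℝ y (T y) := by
    intro j
    rw [← integral_swap_ball, ← integral_sub (hsh j) (hin0.mono_set (hsub j))]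
  simp_rw [h4] at h3
  rw [Finset.sum_sub_distrib, ← Equiv.sum_comp σ] at h3
  simp only [Equiv.symm_apply_apply] at h3
  have h5 : ∀ i, ∫ y in closedBall (x i) ε, (inner ℝ (y + (x (σ i) - x i)) (T y) : ℝ) =
      (∫ y in closedBall (x i) ε, inner ℝ y (T y)) +
      inner ℝ (x (σ i) - x i) (∫ y in closedBall (x i) ε, T y) := by
    intro i
    have e1 : ∀ y, (inner ℝ (y + (x (σ i) - x i)) (T y) : ℝ) =
        inner ℝ y (T y) + inner ℝ (x (σ i) - x i) (T y) := fun y => inner_add_left _ _ _
    simp_rw [e1]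
    rw [integral_add (hin0.mono_set (hsub i)) ((hball i).const_inner _),
      integral_inner (hball i)]
  simp_rw [h5] at h3
  rw [Finset.sum_add_distrib] at h3
  linarith

end Vale.Agent.P074Q
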